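import Vale.Agent.P134.Inf

namespace Vale.Agent.Results.P134.A_inf

open Vale.Agent.P134

/-- De Giorgi's conjecture, in every dimension, for solutions whose derivative in the direction of
monotonicity is constant on every level set. -/
theorem result (m : ℕ) (u : EuclideanSpace ℝ (Fin (m + 1)) → ℝ) (hc : ContDiff ℝ 2 u)
    (hu : ∀ x, lap u x = u x ^ 3 - u x) (hp : ∀ x, 0 < pd (Fin.last m) u x)
    (ht : ∀ x y, u x = u y → pd (Fin.last m) u x = pd (Fin.last m) u y) :
    ∃ (e : EuclideanSpace ℝ (Fin (m + 1))) (h : ℝ → ℝ), ‖e‖ = 1 ∧ ∀ x, u x = h (inner ℝ e x) :=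
  main3 (Fin.last m) hc hu hp ht

end Vale.Agent.Results.P134.A_inf
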