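import Vale.Agent.P134.Tr

namespace Vale.Agent.Results.P134.B_transl

open Vale.Agent.P134

/-- De Giorgi's conjecture, in every dimension, for `C³` solutions whose level sets are carried to
level sets by the translations in the direction of monotonicity. -/
theorem result (m : ℕ) (u : EuclideanSpace ℝ (Fin (m + 1)) → ℝ) (hc : ContDiff ℝ 3 u)
    (hu : ∀ x, lap u x = u x ^ 3 - u x) (hp : ∀ x, 0 < pd (Fin.last m) u x)
    (ht : ∀ x y, u x = u y → ∀ t : ℝ, u (x + t • EuclideanSpace.single (Fin.last m) 1) =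
      u (y + t • EuclideanSpace.single (Fin.last m) 1)) :
    ∃ (e : EuclideanSpace ℝ (Fin (m + 1))) (h : ℝ → ℝ), ‖e‖ = 1 ∧ ∀ x, u x = h (inner ℝ e x) :=
  main2 (Fin.last m) hc hu hp ht

end Vale.Agent.Results.P134.B_transl
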